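import Mathlib
import Vale.Agent.Lib.P176.Dell
import Vale.Agent.Lib.P176.DellSyz
import Vale.Agent.Lib.P176.DellMain

/-!
# P176: the delooping-level bound for the finitistic dimension

`A` is a left Artinian ring and `n` a natural number.

For an injective resolution `I` of a module `T`, the kernel of the differential
`I^m → I^(m+1)` is the `m`-th cosyzygy of `T`; for a projective resolution `P` of a module `S`,
the cokernel of the differential `P_(m+1) → P_m` is the `m`-th syzygy of `S`.

* Cosyzygy form: if for every simple module `T` some cosyzygy of index `m ≤ n` is a retract of
  the direct sum of an `(m+1)`-st cosyzygy of a module `X` and an injective module, then every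
  finitely generated module of finite projective dimension has projective dimension at most `n`.
* Syzygy form (delooping level of `A` at most `n`): if for every simple module `S` some syzygy of
  index `m ≤ n` is a retract of the direct sum of an `(m+1)`-st syzygy of a module `X` and a
  projective module, then every module of finite injective dimension has injective dimension at
  most `n`, and, when `A` is a finite-dimensional algebra over a field, every finitely generated
  right module (module over the opposite ring) of finite projective dimension has projective
  dimension at most `n`.
-/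

universe u

namespace Vale.Agent.Results.P176.DeloopingLevelBound

open CategoryTheory Abelian Limits

theorem result (A : Type u) [Ring A] [IsArtinianRing A] (n : ℕ) :
    ((∀ T : ModuleCat.{u} A, IsSimpleModule A T →
        ∃ (m : ℕ) (X Q : ModuleCat.{u} A) (I : InjectiveResolution T)
          (I' : InjectiveResolution X),
          m ≤ n ∧ Injective Q ∧
          Nonempty (Retract (kernel (I.cocomplex.d m (m + 1)))
            (kernel (I'.cocomplex.d (m + 1) (m + 2)) ⊞ Q))) →
      ∀ M : ModuleCat.{u} A, Module.Finite A M → ∀ d : ℕ,
        HasProjectiveDimensionLE M d → HasProjectiveDimensionLE M n) ∧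
    ((∀ S : ModuleCat.{u} A, IsSimpleModule A S →
        ∃ (m : ℕ) (X Q : ModuleCat.{u} A) (P : ProjectiveResolution S)
          (P' : ProjectiveResolution X),
          m ≤ n ∧ Projective Q ∧
          Nonempty (Retract (cokernel (P.complex.d (m + 1) m))
            (cokernel (P'.complex.d (m + 2) (m + 1)) ⊞ Q))) →
      (∀ (N : ModuleCat.{u} A) (d : ℕ),
        HasInjectiveDimensionLE N d → HasInjectiveDimensionLE N n) ∧
      (∀ (k : Type u) [Field k] [Algebra k A] [Module.Finite k A]
        (M : ModuleCat.{u} (MulOpposite A)), Module.Finite (MulOpposite A) M → ∀ d : ℕ,
        HasProjectiveDimensionLE M d → HasProjectiveDimensionLE M n)) := by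
  refine ⟨fun h M hfin d hM =>
    Vale.Agent.Lib.P176.findim_le_of_cosyzygy_delooping A n h M hfin d hM, fun h => ⟨?_, ?_⟩⟩
  · intro N d hN
    exact Vale.Agent.Lib.P176.fininjdim_le_of_syzygy_delooping A n h N d hN
  · intro k _ _ _ M hfin d hM
    exact Vale.Agent.Lib.P176.findim_op_le_dell k A n h M hfin d hM

end Vale.Agent.Results.P176.DeloopingLevelBound
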