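import Mathlib
import Vale.Agent.Lib.P176.ITThree
import Vale.Agent.Lib.P176.XiIdeals
import Vale.Agent.Lib.P176.WeiIT
import Vale.Agent.Lib.P176.CumMain

/-!
# P176: three classes of left artinian rings with finite finitistic dimension, and a reduction

Let `R` be a left artinian ring (for instance a finite-dimensional algebra over a field, or an
Artin algebra) with Jacobson radical `J`, and let `k` be a field.  The little finitistic
dimension of a ring is finite when there is `N` such that every finitely generated left module
of finite projective dimension has projective dimension `< N`.  The theorem is the conjunction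
of the four statements below; in the first three the conclusion is that the little finitistic
dimension of `R` is finite.

* Three layers.  All radical layers `J^i / J^(i+1)`, except those with index in a set `bad` of at
  most three natural numbers, have finite projective dimension.

* Two ideals.  `I` and `K` are left ideals with `a * b * c = 0` for all `a ∈ I`, `b ∈ K`,
  `c ∈ J`, and the finitely generated modules killed by `I`, and those killed by `K`, are finite
  direct sums of copies of finitely many finitely generated modules (`R / I` and `R / K` have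
  finite representation type).

* Syzygies that are cokernels.  There are a natural number `n` and finitely many finitely
  generated modules `U 0, ..., U (s-1)` such that every finitely generated module `M` has an
  `n`-th syzygy `Z n` (there are `Z 0 ≅ M` and short exact sequences
  `0 → Z (i+1) → P → Z i → 0` with `P` projective, for `i < n`) together with a short exact
  sequence `0 → V₁ → V₀ → Z n → 0` in which `V₁` and `V₀` are finite direct sums of copies of
  the `U j`.

* Left-right symmetry.  The little finitistic dimension is finite for every finite-dimensional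
  `k`-algebra if and only if, for every finite-dimensional `k`-algebra `B`, finiteness of the
  little finitistic dimension of the opposite algebra of `B` implies finiteness of the little
  finitistic dimension of `B`.
-/

universe u

namespace Vale.Agent.Results.P176.IgusaTodorovClasses

open CategoryTheory Abelian

theorem result (R : Type u) [Ring R] [IsArtinianRing R] (k : Type u) [Field k] :
    (∀ bad : Finset ℕ, bad.card ≤ 3 →
      (∀ i : ℕ, i ∉ bad → ∃ n : ℕ, HasProjectiveDimensionLT
        (ModuleCat.of R (↥(Ring.jacobson R ^ i) ⧸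
          (Ring.jacobson R ^ (i + 1)).submoduleOf (Ring.jacobson R ^ i))) n) →
      ∃ N : ℕ, ∀ M : ModuleCat.{u} R, Module.Finite R M →
        (∃ n : ℕ, HasProjectiveDimensionLT M n) → HasProjectiveDimensionLT M N) ∧
    (∀ I K : Ideal R, (∀ a ∈ I, ∀ b ∈ K, ∀ c ∈ Ring.jacobson R, a * b * c = 0) →
      ∀ (s t : ℕ) (U : Fin s → ModuleCat.{u} R) (V : Fin t → ModuleCat.{u} R),
      (∀ j, Module.Finite R (U j)) → (∀ j, Module.Finite R (V j)) →
      (∀ X : ModuleCat.{u} R, Module.Finite R X → (∀ a ∈ I, ∀ x : X, a • x = 0) →
        ∃ v : Fin s → ℕ, Nonempty (X ≃ₗ[R] (∀ j, Fin (v j) → U j))) →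
      (∀ X : ModuleCat.{u} R, Module.Finite R X → (∀ b ∈ K, ∀ x : X, b • x = 0) →
        ∃ w : Fin t → ℕ, Nonempty (X ≃ₗ[R] (∀ j, Fin (w j) → V j))) →
      ∃ N : ℕ, ∀ M : ModuleCat.{u} R, Module.Finite R M →
        (∃ d : ℕ, HasProjectiveDimensionLT M d) → HasProjectiveDimensionLT M N) ∧
    (∀ (n s : ℕ) (U : Fin s → ModuleCat.{u} R), (∀ j, Module.Finite R (U j)) →
      (∀ M : ModuleCat.{u} R, Module.Finite R M →
        ∃ Z : ℕ → ModuleCat.{u} R, Nonempty (Z 0 ≅ M) ∧
          (∀ i : ℕ, i < n → ∃ (P : ModuleCat.{u} R) (f : Z (i + 1) ⟶ P) (g : P ⟶ Z i)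
            (w : f ≫ g = 0), Projective P ∧ (ShortComplex.mk f g w).ShortExact) ∧
          ∃ (v₁ v₀ : Fin s → ℕ)
            (f : ModuleCat.of R (∀ j, Fin (v₁ j) → U j) ⟶
              ModuleCat.of R (∀ j, Fin (v₀ j) → U j))
            (g : ModuleCat.of R (∀ j, Fin (v₀ j) → U j) ⟶ Z n) (w : f ≫ g = 0),
            (ShortComplex.mk f g w).ShortExact) →
      ∃ N : ℕ, ∀ M : ModuleCat.{u} R, Module.Finite R M →
        (∃ d : ℕ, HasProjectiveDimensionLT M d) → HasProjectiveDimensionLT M N) ∧
    ((∀ (A : Type u) [Ring A] [Algebra k A] [Module.Finite k A],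
        ∃ N : ℕ, ∀ M : ModuleCat.{u} A, Module.Finite A M →
          (∃ d : ℕ, HasProjectiveDimensionLT M d) → HasProjectiveDimensionLT M N) ↔
      (∀ (B : Type u) [Ring B] [Algebra k B] [Module.Finite k B],
        (∃ N : ℕ, ∀ M : ModuleCat.{u} (MulOpposite B), Module.Finite (MulOpposite B) M →
          (∃ d : ℕ, HasProjectiveDimensionLT M d) → HasProjectiveDimensionLT M N) →
        ∃ N : ℕ, ∀ M : ModuleCat.{u} B, Module.Finite B M →
          (∃ d : ℕ, HasProjectiveDimensionLT M d) → HasProjectiveDimensionLT M N)) := by
  refine ⟨fun bad hbad hgood => ?_, fun I K hIK s t U V hU hV hI hK => ?_,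
    fun n s U hU h => ?_, ?_⟩
  · obtain ⟨N, hN⟩ := Vale.Agent.Lib.P176.three_layers (R := R) bad hbad hgood
    exact ⟨N, fun M hfin hM => hN M hM⟩
  · exact Vale.Agent.Lib.P176.xi_ideals R I K hIK U V hU hV
      (fun X _ _ hfin hX => hI (ModuleCat.of R X) hfin hX)
      (fun X _ _ hfin hX => hK (ModuleCat.of R X) hfin hX)
  · exact Vale.Agent.Lib.P176.wei_it R n s U hU h
  · exact Vale.Agent.Lib.P176.findim_symmetry k

end Vale.Agent.Results.P176.IgusaTodorovClasses
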