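import Mathlib
import Vale.Agent.Lib.P176.RickMain

/-!
# P176: if injectives generate, the big finitistic dimension is finite

Let `A` be a finite-dimensional algebra over a field `k` and let `D(A)` be the unbounded derived
category of the category of all left `A`-modules.  Suppose that the injective modules generate
`D(A)` as a localizing subcategory: every property `S` of objects of `D(A)` that is triangulated
(contains zero, is stable under shifts and under extensions in distinguished triangles), closed
under isomorphisms and closed under all coproducts indexed by small types, and that holds for
every injective module placed in degree zero, holds for all objects.  Then there is a natural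
number `n` such that every left `A`-module of finite projective dimension, finitely generated
or not, has projective dimension at most `n`.  That is, the big finitistic dimension of `A` is
finite, and hence so is the little finitistic dimension.

This is the theorem of Rickard on injective generation and the finitistic dimension conjecture.
-/

universe w u

namespace Vale.Agent.Results.P176.InjectivesGenerate

open CategoryTheory Limits

theorem result (k : Type u) [Field k] (A : Type u) [Ring A] [Algebra k A] [Module.Finite k A]
    [HasDerivedCategory.{w} (ModuleCat.{u} A)]
    (hgen : ∀ S : ObjectProperty (DerivedCategory (ModuleCat.{u} A)), S.IsTriangulated →
      S.IsClosedUnderIsomorphisms →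
      (∀ J : Type u, S.IsClosedUnderColimitsOfShape (Discrete J)) →
      (∀ I : ModuleCat.{u} A, Injective I →
        S ((DerivedCategory.singleFunctor (ModuleCat.{u} A) 0).obj I)) → ∀ X, S X) :
    ∃ n : ℕ, ∀ (M : ModuleCat.{u} A) (d : ℕ),
      HasProjectiveDimensionLE M d → HasProjectiveDimensionLE M n :=
  Vale.Agent.Lib.P176.findim_of_injectives_generate k A hgen

end Vale.Agent.Results.P176.InjectivesGenerate
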