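import Mathlib
import Vale.Agent.Lib.P176.AllButOne
import Vale.Agent.Results.P176.DeloopingLevelBound
import Vale.Agent.Results.P176.IgusaTodorovClasses
import Vale.Agent.Results.P176.InjectivesGenerate

/-!
# P176: classes of algebras with finite finitistic dimension, in one statement

The theorem is the plain conjunction of four statements, each given a name below.

* One exceptional simple module.  `A` is a finite-dimensional algebra over a field and `c` a
  natural number; if any two simple modules of injective dimension greater than `c` are
  isomorphic, every finitely generated module of finite projective dimension has projective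
  dimension at most `c + 1`.
* Delooping level.  `A` is a finite-dimensional algebra over a field; if for every simple
  module some syzygy `Ω^m S`, `m ≤ n`, is a direct summand of `Ω^(m+1) X ⊕ Q` with `Q`
  projective, every finitely generated right module of finite projective dimension has
  projective dimension at most `n` (from the file `DeloopingLevelBound`).
* Radical layers.  `R` is a left Artinian ring with radical `J`; if all but at most three of the
  layers `J^i / J^(i+1)` have finite projective dimension, the finitistic dimension of `R` is
  finite (from the file `IgusaTodorovClasses`).
* Injective generation.  `A` is a finite-dimensional algebra over a field; if the injective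
  modules generate the unbounded derived category of `A` as a localizing subcategory, there is
  a common bound for the projective dimensions of all modules of finite projective dimension.
-/

universe w u

namespace Vale.Agent.Results.P176.ClassesAndCriteria

open CategoryTheory Abelian Limits

/-- One exceptional simple module: if any two simple modules of injective dimension greater
than `c` are isomorphic, finitely generated modules of finite projective dimension have
projective dimension at most `c + 1`. -/
def OneSimple : Prop :=
    ∀ (k : Type u) [Field k] (A : Type u) [Ring A] [Algebra k A] [Module.Finite k A] (c : ℕ),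
      (∀ S S' : ModuleCat.{u} A, IsSimpleModule A S → IsSimpleModule A S' →
        ¬ HasInjectiveDimensionLE S c → ¬ HasInjectiveDimensionLE S' c → Nonempty (S ≅ S')) →
      ∀ M : ModuleCat.{u} A, Module.Finite A M → ∀ n : ℕ,
        HasProjectiveDimensionLE M n → HasProjectiveDimensionLE M (c + 1)

/-- Delooping level: if for every simple module `S` some syzygy `Ω^m S`, `m ≤ n`, is a direct
summand of `Ω^(m+1) X ⊕ Q` with `Q` projective, finitely generated right modules of finite
projective dimension have projective dimension at most `n`. -/
def Delooping : Prop :=
    ∀ (k : Type u) [Field k] (A : Type u) [Ring A] [Algebra k A] [Module.Finite k A] (n : ℕ),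
      (∀ S : ModuleCat.{u} A, IsSimpleModule A S →
          ∃ (m : ℕ) (X Q : ModuleCat.{u} A) (P : ProjectiveResolution S)
            (P' : ProjectiveResolution X),
            m ≤ n ∧ Projective Q ∧
            Nonempty (Retract (cokernel (P.complex.d (m + 1) m))
              (cokernel (P'.complex.d (m + 2) (m + 1)) ⊞ Q))) →
      ∀ M : ModuleCat.{u} (MulOpposite A), Module.Finite (MulOpposite A) M → ∀ d : ℕ,
        HasProjectiveDimensionLE M d → HasProjectiveDimensionLE M n

/-- Radical layers: over a left Artinian ring with radical `J`, if all layers `J^i / J^(i+1)`
with `i` outside a set of at most three indices have finite projective dimension, the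
projective dimensions of the finitely generated modules of finite projective dimension have a
common bound. -/
def Layers : Prop :=
    ∀ (R : Type u) [Ring R] [IsArtinianRing R] (bad : Finset ℕ), bad.card ≤ 3 →
      (∀ i : ℕ, i ∉ bad → ∃ n : ℕ, HasProjectiveDimensionLT
        (ModuleCat.of R (↥(Ring.jacobson R ^ i) ⧸
          (Ring.jacobson R ^ (i + 1)).submoduleOf (Ring.jacobson R ^ i))) n) →
      ∃ N : ℕ, ∀ M : ModuleCat.{u} R, Module.Finite R M →
        (∃ n : ℕ, HasProjectiveDimensionLT M n) → HasProjectiveDimensionLT M N

/-- Injective generation: if the injective modules generate the unbounded derived category as a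
localizing subcategory, the projective dimensions of all modules of finite projective
dimension have a common bound. -/
def InjGen : Prop :=
    ∀ (k : Type u) [Field k] (A : Type u) [Ring A] [Algebra k A] [Module.Finite k A]
      [HasDerivedCategory.{w} (ModuleCat.{u} A)],
      (∀ S : ObjectProperty (DerivedCategory (ModuleCat.{u} A)), S.IsTriangulated →
        S.IsClosedUnderIsomorphisms →
        (∀ J : Type u, S.IsClosedUnderColimitsOfShape (Discrete J)) →
        (∀ I : ModuleCat.{u} A, Injective I →
          S ((DerivedCategory.singleFunctor (ModuleCat.{u} A) 0).obj I)) → ∀ X, S X) →
      ∃ n : ℕ, ∀ (M : ModuleCat.{u} A) (d : ℕ),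
        HasProjectiveDimensionLE M d → HasProjectiveDimensionLE M n

theorem result : OneSimple.{u} ∧ Delooping.{u} ∧ Layers.{u} ∧ InjGen.{w, u} :=
  ⟨fun k _ A _ _ _ c h M hfin n hM =>
      Vale.Agent.Lib.P176.AllButOne.findim_le_of_all_but_one k A c h M hfin n hM,
    fun k _ A _ _ _ n h M hM d hd => by
      have : IsArtinianRing A := IsArtinianRing.of_finite k A
      exact ((Vale.Agent.Results.P176.DeloopingLevelBound.result A n).2 h).2 k M hM d hd,
    fun R _ _ bad hbad h =>
      (Vale.Agent.Results.P176.IgusaTodorovClasses.result R (ULift.{u} ℚ)).1 bad hbad h,
    fun k _ A _ _ _ _ hgen => Vale.Agent.Results.P176.InjectivesGenerate.result k A hgen⟩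

end Vale.Agent.Results.P176.ClassesAndCriteria
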